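import Vale.Agent.P133.R2.H307.Spec2
import Mathlib.Topology.PartitionOfUnity
import Mathlib.Analysis.SpecificLimits.Basic

/-!
P133 (row E of helper307): continuous functions on a compact subset with values in `herS a`
extend to elements of the section algebra.
-/

open scoped ComplexOrder Topology

namespace Vale.Agent.P133.R2.H974

open Vale.Agent.P133.R2.H307

universe u v w

section

variable {X : Type v} [TopologicalSpace X] {B : X → Type u}
  [∀ t, NonUnitalCStarAlgebra (B t)] {A : Type u} [NonUnitalCStarAlgebra A]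
  {π : ∀ t, A →⋆ₙₐ[ℂ] B t}

omit [TopologicalSpace X] in
theorem ext_of_norm (hnorm : ∀ (a : A) (r : ℝ), 0 ≤ r → (∀ t, ‖π t a‖ ≤ r) → ‖a‖ ≤ r) {x y : A}
    (h : ∀ t, π t x = π t y) : x = y := by
  have h1 := hnorm (x - y) 0 le_rfl fun t => by rw [map_sub, h t, sub_self, norm_zero]
  exact sub_eq_zero.1 (norm_le_zero_iff.1 h1)

omit [TopologicalSpace X] in
/-- multiplication by functions preserves `herS a` -/
theorem smul_mem_herS (hnorm : ∀ (a : A) (r : ℝ), 0 ≤ r → (∀ t, ‖π t a‖ ≤ r) → ‖a‖ ≤ r)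
    (f : X → ℝ) (hf : ∀ t, 0 ≤ f t ∧ f t ≤ 1)
    (hmod : ∀ a : A, ∃ b : A, ∀ t, π t b = (f t : ℂ) • π t a) {a d b : A} (hd : d ∈ herS a)
    (hb : ∀ t, π t b = (f t : ℂ) • π t d) : b ∈ herS a := by
  obtain ⟨hd1, hd2⟩ := Submodule.mem_inf.1 hd
  refine Submodule.mem_inf.2 ⟨?_, ?_⟩
  · rw [← SetLike.mem_coe, Submodule.topologicalClosure_coe, Metric.mem_closure_iff] at hd1 ⊢
    intro ε hε
    obtain ⟨y, ⟨x, hx⟩, hy'⟩ := hd1 (ε / 2) (by positivity)
    have hx1 : a * (x * a) = y := hx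
    obtain ⟨x', hx'⟩ := hmod x
    refine ⟨a * (x' * a), ⟨x', rfl⟩, ?_⟩
    rw [dist_eq_norm] at hy' ⊢
    have h1 : ‖b - a * (x' * a)‖ ≤ ε / 2 := by
      refine hnorm _ _ (by positivity) fun t => ?_
      have h2 : π t (b - a * (x' * a)) = (f t : ℂ) • π t (d - y) := by
        rw [← hx1, map_sub, map_sub, map_mul, map_mul, map_mul, map_mul, hb t, hx' t, smul_sub,
          smul_mul_assoc, mul_smul_comm]
      rw [h2, norm_smul, Complex.norm_real, Real.norm_of_nonneg (hf t).1]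
      have h3 : ‖π t (d - y)‖ ≤ ‖d - y‖ := NonUnitalStarAlgHom.norm_apply_le (π t) (d - y)
      have h4 := norm_nonneg (π t (d - y))
      have h5 := hf t
      nlinarith
    linarith
  · have hd2' : star d = d := hd2
    show star b = b
    refine ext_of_norm hnorm fun t => ?_
    rw [map_star, hb t, star_smul, ← map_star, hd2']
    congr 1
    exact Complex.conj_ofReal _

theorem approx [LocallyCompactSpace X] [T2Space X]
    (hnorm : ∀ (a : A) (r : ℝ), 0 ≤ r → (∀ t, ‖π t a‖ ≤ r) → ‖a‖ ≤ r)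
    (hcpt : ∀ (a : A) (r : ℝ), 0 < r → IsCompact {t | r ≤ ‖π t a‖})
    (hmod : ∀ f : C(X, ℝ), (∀ t, 0 ≤ f t ∧ f t ≤ 1) → ∀ a : A, ∃ b : A,
      ∀ t, π t b = (f t : ℂ) • π t a)
    {a : A} {K : Set X} (hK : IsCompact K) (G : C(K, herS a)) {r : ℝ} (hr : 0 < r)
    (hG : ∀ t : K, ‖π t (G t : A)‖ ≤ r) :
    ∃ d ∈ herS a, ‖d‖ ≤ 2 * r ∧ ∀ t : K, ‖π t ((G t : A) - d)‖ ≤ r / 2 := by
  have hU : ∀ s : K, ∃ U : Set X, IsOpen U ∧ (s : X) ∈ U ∧ (∀ t ∈ U, ‖π t (G s : A)‖ ≤ 2 * r) ∧
      ∀ t : K, (t : X) ∈ U → ‖(G t : A) - G s‖ ≤ r / 2 := by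
    intro s
    have hc : Continuous fun t : K => ‖(G t : A) - G s‖ :=
      ((continuous_subtype_val.comp G.continuous).sub continuous_const).norm
    have ho : IsOpen {t : K | ‖(G t : A) - G s‖ < r / 2} := isOpen_lt hc continuous_const
    obtain ⟨V, hV, hV'⟩ := isOpen_induced_iff.1 ho
    have hW : IsOpen {t : X | 2 * r ≤ ‖π t (G s : A)‖}ᶜ :=
      (hcpt (G s : A) (2 * r) (by positivity)).isClosed.isOpen_compl
    refine ⟨V ∩ {t : X | 2 * r ≤ ‖π t (G s : A)‖}ᶜ, hV.inter hW, ⟨?_, ?_⟩, ?_, ?_⟩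
    · have h1 : s ∈ {t : K | ‖(G t : A) - G s‖ < r / 2} := by
        show ‖(G s : A) - G s‖ < r / 2
        rw [sub_self, norm_zero]
        positivity
      rw [← hV'] at h1
      exact h1
    · intro h1
      have h2 : 2 * r ≤ ‖π s (G s : A)‖ := h1
      have h3 := hG s
      linarith
    · intro t ht
      have h1 : ¬ (2 * r ≤ ‖π t (G s : A)‖) := ht.2
      linarith
    · intro t ht
      have h1 : t ∈ Subtype.val ⁻¹' V := ht.1
      rw [hV'] at h1
      have h2 : ‖(G t : A) - G s‖ < r / 2 := h1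
      exact h2.le
  choose U hUo hUs hU1 hU2 using hU
  obtain ⟨T, hT⟩ := hK.elim_finite_subcover U hUo fun s hs =>
    Set.mem_iUnion.2 ⟨⟨s, hs⟩, hUs ⟨s, hs⟩⟩
  have hT' : K ⊆ ⋃ i : T, U i.1 := by
    intro s hs
    obtain ⟨i, hi⟩ := Set.mem_iUnion.1 (hT hs)
    obtain ⟨hi1, hi2⟩ := Set.mem_iUnion.1 hi
    exact Set.mem_iUnion.2 ⟨⟨i, hi1⟩, hi2⟩
  obtain ⟨f, hf, -⟩ := PartitionOfUnity.exists_isSubordinate_of_locallyFinite_t2space hK
    (fun i : T => U i.1) (fun i => hUo i.1) (locallyFinite_of_finite _) hT'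
  have hf0 : ∀ i : T, ∀ t, 0 ≤ f i t ∧ f i t ≤ 1 := fun i t => ⟨f.nonneg i t, f.le_one i t⟩
  have hsle : ∀ t, ∑ i : T, f i t ≤ 1 := fun t => by
    have := f.sum_le_one t
    rwa [finsum_eq_sum_of_fintype] at this
  have hsone : ∀ t ∈ K, ∑ i : T, f i t = 1 := fun t ht => by
    have := f.sum_eq_one ht
    rwa [finsum_eq_sum_of_fintype] at this
  have hsupp : ∀ i : T, ∀ t, f i t ≠ 0 → t ∈ U i.1 := fun i t ht =>
    hf i (subset_tsupport _ ht)
  choose b hb using fun i : T => hmod (f i) (hf0 i) (G i.1 : A)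
  have hbm : ∀ i : T, b i ∈ herS a := fun i =>
    smul_mem_herS hnorm (f i) (hf0 i) (hmod (f i) (hf0 i)) (G i.1).2 (hb i)
  refine ⟨∑ i : T, b i, Submodule.sum_mem _ fun i _ => hbm i, ?_, ?_⟩
  · refine hnorm _ _ (by positivity) fun t => ?_
    rw [map_sum]
    have h1 : ∀ i ∈ (Finset.univ : Finset T), ‖π t (b i)‖ ≤ f i t * (2 * r) := by
      intro i _
      rw [hb i t, norm_smul, Complex.norm_real, Real.norm_of_nonneg (hf0 i t).1]
      by_cases h : f i t = 0
      · rw [h, zero_mul, zero_mul]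
      · exact mul_le_mul_of_nonneg_left (hU1 i.1 t (hsupp i t h)) (hf0 i t).1
    refine (norm_sum_le_of_le _ h1).trans ?_
    rw [← Finset.sum_mul]
    have := hsle t
    nlinarith
  · intro t
    have h0 : π t ((G t : A) - ∑ i : T, b i) =
        ∑ i : T, (f i t : ℂ) • π t ((G t : A) - (G i.1 : A)) := by
      have h1 : ∀ i : T, (f i t : ℂ) • π t ((G t : A) - (G i.1 : A)) =
          (f i t : ℂ) • π t (G t : A) - π t (b i) := by
        intro i
        rw [map_sub, smul_sub, hb i t]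
      rw [Finset.sum_congr rfl fun i _ => h1 i, Finset.sum_sub_distrib, ← Finset.sum_smul,
        map_sub, map_sum]
      have h2 : ∑ i : T, (f i t : ℂ) = 1 := by
        have := hsone t t.2
        exact_mod_cast this
      rw [h2, one_smul]
    rw [h0]
    have h1 : ∀ i ∈ (Finset.univ : Finset T),
        ‖(f i t : ℂ) • π t ((G t : A) - (G i.1 : A))‖ ≤ f i t * (r / 2) := by
      intro i _
      rw [norm_smul, Complex.norm_real, Real.norm_of_nonneg (hf0 i t).1]
      by_cases h : f i t = 0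
      · rw [h, zero_mul, zero_mul]
      · refine mul_le_mul_of_nonneg_left ?_ (hf0 i t).1
        exact (NonUnitalStarAlgHom.norm_apply_le (π t) _).trans (hU2 i.1 t (hsupp i t h))
    refine (norm_sum_le_of_le _ h1).trans ?_
    rw [← Finset.sum_mul, hsone t t.2, one_mul]

theorem isClosed_herS (a : A) : IsClosed (herS a : Set A) := by
  unfold herS
  rw [Submodule.coe_inf]
  refine (Submodule.isClosed_topologicalClosure _).inter ?_
  have h1 : ((selfAdjoint.submodule ℝ A : Submodule ℝ A) : Set A) = {x | star x = x} := rfl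
  rw [h1]
  exact isClosed_eq continuous_star continuous_id

end

theorem specExt : SpecExt.{u, v} := by
  intro X _ _ _ B _ A _ π _ hnorm hcpt hmod a K _ hK F
  have : CompactSpace K := isCompact_iff_compactSpace.1 hK
  obtain ⟨R, hR⟩ := (isCompact_univ : IsCompact (Set.univ : Set K)).exists_bound_of_continuousOn
    (f := fun t : K => (F t : A)) (continuous_subtype_val.comp F.continuous).continuousOn
  set R' : ℝ := max R 1 with hR'
  have hR0 : 0 < R' := lt_of_lt_of_le one_pos (le_max_right _ _)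
  set P : ℕ → A → Prop := fun n D => D ∈ herS a ∧ ∀ t : K, ‖π t ((F t : A) - D)‖ ≤ R' / 2 ^ n
    with hP
  have h0 : P 0 0 := by
    refine ⟨Submodule.zero_mem _, fun t => ?_⟩
    rw [sub_zero, pow_zero, div_one]
    exact ((NonUnitalStarAlgHom.norm_apply_le (π t) _).trans (hR t (Set.mem_univ t))).trans
      (le_max_left _ _)
  have hstep : ∀ n D, P n D → ∃ D', P (n + 1) D' ∧ ‖D' - D‖ ≤ 2 * (R' / 2 ^ n) := by
    intro n D hD
    obtain ⟨hD1, hD2⟩ := hD
    set G : C(K, herS a) := F - ContinuousMap.const K (⟨D, hD1⟩ : herS a) with hG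
    have hGt : ∀ t : K, (G t : A) = (F t : A) - D := fun t => rfl
    obtain ⟨d, hd, hd1, hd2⟩ := approx hnorm hcpt hmod hK G (r := R' / 2 ^ n) (by positivity)
      (fun t => by rw [hGt]; exact hD2 t)
    refine ⟨D + d, ⟨Submodule.add_mem _ hD1 hd, fun t => ?_⟩, ?_⟩
    · have h1 := hd2 t
      rw [hGt, sub_sub] at h1
      refine h1.trans (le_of_eq ?_)
      rw [pow_succ]
      field_simp
    · rwa [add_sub_cancel_left]
  choose! nx hnx1 hnx2 using hstep
  let u : ℕ → A := fun n => Nat.rec 0 (fun n D => nx n D) n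
  have hu : ∀ n, P n (u n) := by
    intro n
    induction n with
    | zero => exact h0
    | succ n ih => exact hnx1 n _ ih
  have hd : ∀ n, dist (u n) (u (n + 1)) ≤ 2 * R' * (1 / 2) ^ n := by
    intro n
    rw [dist_comm, dist_eq_norm]
    have h1 : ‖u (n + 1) - u n‖ ≤ 2 * (R' / 2 ^ n) := hnx2 n _ (hu n)
    refine h1.trans (le_of_eq ?_)
    rw [one_div, inv_pow]
    ring
  have hcau : CauchySeq u := cauchySeq_of_le_geometric _ _ (by norm_num) hd
  obtain ⟨d, hd'⟩ := cauchySeq_tendsto_of_complete hcau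
  refine ⟨d, (isClosed_herS a).mem_of_tendsto hd' (Filter.Eventually.of_forall fun n => (hu n).1),
    fun t => ?_⟩
  have h2 : ‖π t ((F t : A) - d)‖ ≤ 0 := by
    have h3 : Filter.Tendsto (fun n => ‖d - u n‖ + R' / 2 ^ n) Filter.atTop (𝓝 0) := by
      have h4 : Filter.Tendsto (fun n => ‖d - u n‖) Filter.atTop (𝓝 0) := by
        have := (tendsto_const_nhds (x := d)).sub hd'
        rw [sub_self] at this
        simpa using this.norm
      have h5 : Filter.Tendsto (fun n : ℕ => R' / 2 ^ n) Filter.atTop (𝓝 0) := by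
        have := (tendsto_pow_atTop_nhds_zero_of_lt_one (r := (1 / 2 : ℝ)) (by norm_num)
          (by norm_num)).const_mul R'
        rw [mul_zero] at this
        refine this.congr fun n => ?_
        rw [one_div, inv_pow]
        rfl
      simpa using h4.add h5
    refine ge_of_tendsto h3 (Filter.Eventually.of_forall fun n => ?_)
    have h6 : (F t : A) - d = ((F t : A) - u n) - (d - u n) := by abel
    rw [h6, map_sub]
    refine (norm_sub_le _ _).trans ?_
    have h7 : ‖π t (d - u n)‖ ≤ ‖d - u n‖ := NonUnitalStarAlgHom.norm_apply_le (π t) _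
    have h8 := (hu n).2 t
    linarith
  have h9 := norm_le_zero_iff.1 h2
  rw [map_sub, sub_eq_zero] at h9
  exact h9.symm

end Vale.Agent.P133.R2.H974
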